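import Vale.Agent.P224.R2.H581.BoxF

/-!
The budget of the relative tail in odd dimension and the check of one row of the tables.
-/

namespace Vale.Agent.P224.R2.H926

open Vale.Agent.P224.R2.H178 Vale.Agent.P224.R2.H581

/-- the budget of the plain relative tail, constant on the blocks of dimensions -/
def rlO (m : ℕ) : ℚ :=
  if m ≤ 59 then 358 / 10000 else if m ≤ 99 then 375 / 10000 else if m ≤ 149 then 339 / 10000
  else if m ≤ 199 then 310 / 10000 else if m ≤ 299 then 270 / 10000
  else if m ≤ 399 then 242 / 10000 else if m ≤ 599 then 205 / 10000 else 177 / 10000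

/-- the budget of the relative tail with the factor of the common constant -/
def relO (m : ℕ) : ℚ := (1 + 7 / (5 * m)) * rlO m

/-- the check of one row with the budget of its dimension -/
def okR (r : ORow) : Bool := okF (relO r.m) r

lemma rlO_1 {m : ℕ} (h : m ≤ 59) : rlO m = 358 / 10000 := by
  unfold rlO
  rw [if_pos h]

lemma rlO_2 {m : ℕ} (h0 : 59 < m) (h : m ≤ 99) : rlO m = 375 / 10000 := by
  unfold rlO
  rw [if_neg (by omega), if_pos h]

lemma rlO_3 {m : ℕ} (h0 : 99 < m) (h : m ≤ 149) : rlO m = 339 / 10000 := by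
  unfold rlO
  rw [if_neg (by omega), if_neg (by omega), if_pos h]

lemma rlO_4 {m : ℕ} (h0 : 149 < m) (h : m ≤ 199) : rlO m = 310 / 10000 := by
  unfold rlO
  rw [if_neg (by omega), if_neg (by omega), if_neg (by omega), if_pos h]

lemma rlO_5 {m : ℕ} (h0 : 199 < m) (h : m ≤ 299) : rlO m = 270 / 10000 := by
  unfold rlO
  rw [if_neg (by omega), if_neg (by omega), if_neg (by omega), if_neg (by omega), if_pos h]

lemma rlO_6 {m : ℕ} (h0 : 299 < m) (h : m ≤ 399) : rlO m = 242 / 10000 := by
  unfold rlO
  rw [if_neg (by omega), if_neg (by omega), if_neg (by omega), if_neg (by omega),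
    if_neg (by omega), if_pos h]

lemma rlO_7 {m : ℕ} (h0 : 399 < m) (h : m ≤ 599) : rlO m = 205 / 10000 := by
  unfold rlO
  rw [if_neg (by omega), if_neg (by omega), if_neg (by omega), if_neg (by omega),
    if_neg (by omega), if_neg (by omega), if_pos h]

lemma rlO_8 {m : ℕ} (h0 : 599 < m) : rlO m = 177 / 10000 := by
  unfold rlO
  rw [if_neg (by omega), if_neg (by omega), if_neg (by omega), if_neg (by omega),
    if_neg (by omega), if_neg (by omega), if_neg (by omega)]

lemma relO_cast (m : ℕ) : ((relO m : ℚ) : ℝ) = (1 + 7 / (5 * (m : ℝ))) * (rlO m : ℝ) := by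
  unfold relO
  push_cast
  ring

end Vale.Agent.P224.R2.H926
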