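import Vale.Agent.P224.R2.H926.RelO
import Vale.Agent.P224.R2.H977.TabE

/-!
The check of the box for odd `401 ≤ m ≤ 499`.
-/

namespace Vale.Agent.P224.R2.H926

open Vale.Agent.P224.R2.H977

theorem chkE : tabE.all okR = true := by decide +kernel

end Vale.Agent.P224.R2.H926
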