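import Vale.Agent.P224.R2.H178.WO2
import Vale.Agent.P224.R2.H977.TabG

/-!
The numbers of the law in odd dimension `601 ≤ m ≤ 699` with the final weight.
-/

namespace Vale.Agent.P224.R2.H926

open Vale.Agent.P224.R2.H178 Vale.Agent.P224.R2.H977

theorem lowG : tabG.all orowOK2 = true := by decide +kernel

end Vale.Agent.P224.R2.H926
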