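import Vale.Agent.P224.R2.H176.G.Glue0

/-!
Monotonicity of the output of the near law.
-/

namespace Vale.Agent.P224.R2.H926

open MeasureTheory Set Filter Function Real Module Vale.Agent.P224 Vale.Agent.P224.FV
  Vale.Agent.P224.R2.H925 Vale.Agent.P224.R2.H582 Vale.Agent.P224.R2.H728
  Vale.Agent.P224.R2.H176
open Vale.Agent.P224.SM2 Vale.Agent.P224.R2.H820
open scoped RealInnerProductSpace Topology ContDiff Manifold ENNReal

set_option linter.unusedSectionVars false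

section

variable {V W M : Type*} [NormedAddCommGroup V] [InnerProductSpace ℝ V] [FiniteDimensional ℝ V]
  [NormedAddCommGroup W] [InnerProductSpace ℝ W] [FiniteDimensional ℝ W]
  [TopologicalSpace M] [ChartedSpace V M]
  [MeasurableSpace V] [BorelSpace V] [MeasurableSpace M]

/-- the output of the near law is monotone in its numbers -/
theorem nearOut_mono {F N : M → W} {b : OrthonormalBasis (Fin (finrank ℝ W)) ℝ W}
    {j : Fin (finrank ℝ W) → ℝ} {gp h1 d1 gp' h1' d1' : ℝ}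
    (h : NearOut V F N b j gp h1 d1) (hg : gp' ≤ gp) (hh : h1 ≤ h1') (hd : d1 ≤ d1') :
    NearOut V F N b j gp' h1' d1' := by
  rcases h with h | h
  · left
    linarith
  · exact Or.inr ⟨h.1.trans hh, h.2.trans hd⟩

/-- the numbers of the universal odd box: gap `1 / (3 m ^ 3)`, `h1 = 40 / m ^ 3`,
`d1 = 6 / (5 m)` -/
theorem nearOut_oddBox {F N : M → W} {b : OrthonormalBasis (Fin (finrank ℝ W)) ℝ W}
    {j : Fin (finrank ℝ W) → ℝ} {m : ℕ} {gp h1 d1 : ℚ}
    (h : NearOut V F N b j (gp : ℝ) h1 d1)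
    (hg : 1 / (3 * (m : ℚ) ^ 3) ≤ gp) (hh : h1 ≤ 40 / (m : ℚ) ^ 3) (hd : d1 ≤ 6 / (5 * (m : ℚ))) :
    NearOut V F N b j (1 / (3 * (m : ℝ) ^ 3)) (40 / (m : ℝ) ^ 3) (6 / (5 * (m : ℝ))) := by
  have e1 : ((1 / (3 * (m : ℚ) ^ 3) : ℚ) : ℝ) = 1 / (3 * (m : ℝ) ^ 3) := by push_cast; ring
  have e2 : ((40 / (m : ℚ) ^ 3 : ℚ) : ℝ) = 40 / (m : ℝ) ^ 3 := by push_cast; ring
  have e3 : ((6 / (5 * (m : ℚ)) : ℚ) : ℝ) = 6 / (5 * (m : ℝ)) := by push_cast; ring
  rw [← e1, ← e2, ← e3]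
  exact nearOut_mono h (by exact_mod_cast hg) (by exact_mod_cast hh) (by exact_mod_cast hd)

end

end Vale.Agent.P224.R2.H926
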