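import Vale.Agent.P224.R2.H977.Tab
import Vale.Agent.P224.R2.H926.ChkA
import Vale.Agent.P224.R2.H926.ChkB
import Vale.Agent.P224.R2.H926.ChkC
import Vale.Agent.P224.R2.H926.ChkD
import Vale.Agent.P224.R2.H926.ChkE
import Vale.Agent.P224.R2.H926.ChkF
import Vale.Agent.P224.R2.H926.ChkG
import Vale.Agent.P224.R2.H926.ChkH
import Vale.Agent.P224.R2.H926.ChkI
import Vale.Agent.P224.R2.H926.LowA
import Vale.Agent.P224.R2.H926.LowB
import Vale.Agent.P224.R2.H926.LowC
import Vale.Agent.P224.R2.H926.LowD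
import Vale.Agent.P224.R2.H926.LowE
import Vale.Agent.P224.R2.H926.LowF
import Vale.Agent.P224.R2.H926.LowG
import Vale.Agent.P224.R2.H926.LowH
import Vale.Agent.P224.R2.H926.LowI

/-!
The row of every odd dimension `37 ≤ m ≤ 849`.
-/

namespace Vale.Agent.P224.R2.H926

open Vale.Agent.P224.R2.H178 Vale.Agent.P224.R2.H581 Vale.Agent.P224.R2.H977

lemma row_both {l : List ORow} {m : ℕ} (h : ∃ r ∈ l, r.m = m) (hf : l.all okR = true)
    (hg : l.all orowOK2 = true) :
    ∃ r : ORow, r.m = m ∧ okF (relO m) r = true ∧ orowOK2 r = true := by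
  obtain ⟨r, hr, e⟩ := h
  have h1 := List.all_eq_true.1 hf r hr
  unfold okR at h1
  rw [e] at h1
  exact ⟨r, e, h1, List.all_eq_true.1 hg r hr⟩

/-- **The row of every odd dimension `37 ≤ m ≤ 849`** with both kernel checks. -/
theorem row_all {m : ℕ} (h1 : 37 ≤ m) (h2 : m ≤ 849) (h3 : m % 2 = 1) :
    ∃ r : ORow, r.m = m ∧ okF (relO m) r = true ∧ orowOK2 r = true := by
  rcases Nat.lt_or_ge m 100 with h | h
  · exact row_both (memA h1 (by omega) h3) chkA lowA
  rcases Nat.lt_or_ge m 200 with h' | h'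
  · exact row_both (memB (by omega) (by omega) h3) chkB lowB
  rcases Nat.lt_or_ge m 300 with h4 | h4
  · exact row_both (memC (by omega) (by omega) h3) chkC lowC
  rcases Nat.lt_or_ge m 400 with h5 | h5
  · exact row_both (memD (by omega) (by omega) h3) chkD lowD
  rcases Nat.lt_or_ge m 500 with h6 | h6
  · exact row_both (memE (by omega) (by omega) h3) chkE lowE
  rcases Nat.lt_or_ge m 600 with h7 | h7
  · exact row_both (memF (by omega) (by omega) h3) chkF lowF
  rcases Nat.lt_or_ge m 700 with h8 | h8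
  · exact row_both (memG (by omega) (by omega) h3) chkG lowG
  rcases Nat.lt_or_ge m 800 with h9 | h9
  · exact row_both (memH (by omega) (by omega) h3) chkH lowH
  · exact row_both (memI (by omega) h2 h3) chkI lowI

end Vale.Agent.P224.R2.H926
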